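import Vale.Agent.P127.Comb

/-! # P127 Fou/Def: exponentials and exponential sums. -/

namespace Vale.Agent.P127

open Finset
open scoped Classical

/-- `exp (2 π i x)` -/
noncomputable def ec (x : ℝ) : ℂ := Complex.exp ((2 * Real.pi * x : ℝ) * Complex.I)

/-- discrete Fourier transform modulo `P` of a set of integers -/
noncomputable def hatZ (P : ℕ) (A : Finset ℤ) (i : ℤ) : ℂ := ∑ α ∈ A, ec ((i : ℝ) * α / P)

/-- Fourier transform of the counting measure on the points `g y` -/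
noncomputable def VY {n : ℕ} {υ : Type} (Y : Finset υ) (g : υ → Fin n → ℝ) (x : Fin n → ℝ) : ℂ :=
  ∑ y ∈ Y, ec (∑ j, x j * g y j)

theorem ec_add (x y : ℝ) : ec (x + y) = ec x * ec y := by
  unfold ec
  rw [← Complex.exp_add]
  congr 1
  push_cast
  ring

theorem ec_zero : ec 0 = 1 := by simp [ec]

theorem norm_ec (x : ℝ) : ‖ec x‖ = 1 := Complex.norm_exp_ofReal_mul_I _

theorem ec_neg (x : ℝ) : ec (-x) = (starRingEnd ℂ) (ec x) := by
  unfold ec
  rw [← Complex.exp_conj, map_mul, Complex.conj_ofReal, Complex.conj_I]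
  congr 1
  push_cast
  ring

theorem ec_sub (x y : ℝ) : ec (x - y) = ec x * (starRingEnd ℂ) (ec y) := by
  rw [sub_eq_add_neg, ec_add, ec_neg]

theorem ec_sum {ι : Type} (s : Finset ι) (f : ι → ℝ) : ec (∑ j ∈ s, f j) = ∏ j ∈ s, ec (f j) := by
  induction s using Finset.induction_on with
  | empty => simp [ec_zero]
  | insert a s ha ih => rw [sum_insert ha, prod_insert ha, ec_add, ih]

theorem ec_lip (x y : ℝ) : ‖ec x - ec y‖ ≤ 7 * |x - y| := by
  have e : ec x - ec y = ec y * (ec (x - y) - 1) := by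
    rw [mul_sub, ← ec_add, mul_one]
    congr 2
    ring
  rw [e, norm_mul, norm_ec, one_mul]
  unfold ec
  rw [mul_comm _ Complex.I]
  refine Real.norm_exp_I_mul_ofReal_sub_one_le.trans ?_
  rw [Real.norm_eq_abs, abs_mul, abs_of_pos Real.two_pi_pos]
  have := Real.pi_lt_d2
  gcongr
  linarith

theorem ec_re {x : ℝ} (h : |x| ≤ 1 / 14) : 1 / 2 ≤ (ec x).re := by
  have h1 := ec_lip x 0
  rw [ec_zero, sub_zero] at h1
  have h2 := (abs_le.1 ((Complex.abs_re_le_norm _).trans h1)).1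
  rw [Complex.sub_re, Complex.one_re] at h2
  linarith

/-- a sum of exponentials with small arguments is large -/
theorem ec_half {ι : Type} (s : Finset ι) (f : ι → ℝ) (h : ∀ j ∈ s, |f j| ≤ 1 / 14) :
    (s.card : ℝ) / 2 ≤ ‖∑ j ∈ s, ec (f j)‖ := by
  refine le_trans ?_ (Complex.re_le_norm _)
  rw [Complex.re_sum]
  have := card_nsmul_le_sum s (fun j => (ec (f j)).re) (1 / 2) fun j hj => ec_re (h j hj)
  rw [nsmul_eq_mul] at this
  linarith

theorem norm_VY {n : ℕ} {υ : Type} (Y : Finset υ) (g : υ → Fin n → ℝ) (x : Fin n → ℝ) :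
    ‖VY Y g x‖ ≤ Y.card := by
  refine (norm_sum_le _ _).trans ?_
  simp [norm_ec]

/-- the squared modulus of a sum as a double sum -/
theorem normsq_sum {ι : Type} (s : Finset ι) (f : ι → ℂ) :
    ((‖∑ j ∈ s, f j‖ ^ 2 : ℝ) : ℂ) = ∑ j ∈ s, ∑ j' ∈ s, f j * (starRingEnd ℂ) (f j') := by
  rw [← sum_mul_sum, ← map_sum, Complex.mul_conj, Complex.normSq_eq_norm_sq]

end Vale.Agent.P127
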