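import Vale.Agent.P127.Fou.Ort

/-! # P127 Fou/Fej: Fejer kernel, Parseval and Cauchy-Schwarz.
D x = sum over j < Q of ec (j x / P); |D x| is at least Q/2 for |x| at most K (ec_half). I t = fibre of I over t. card (I t) Q^2/4 is at most the sum over y in Y, alpha in A, alpha' in At t of
|D (alpha + <psi t, g y> - alpha')|^2 = sum over j, j' < Q of hatZ P A (j - j') * conj (hatZ P (At t) (j - j')) * VY Y g (((j - j')/P) psi t) (normsq_sum, ec_add, ec_sub),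
whose modulus is at most Q times the sum over i in Ioo (-Q) Q of the product of the moduli (for fixed j' the map j -> j - j' is injective into Ioo (-Q) Q).
Cauchy-Schwarz in i (sum_mul_sq_le_sq_mul_sq), Parseval = ort1 with S = At t, f = id, c = 1, a = -Q (the diagonal has card (At t) points). Then Cauchy-Schwarz in t (sq_sum_le_card_mul_sum_sq). -/

namespace Vale.Agent.P127

open Finset
open scoped Classical

theorem prod_fFej {n : ℕ} {υ : Type} (P : ℕ) (Y : Finset υ) (v : Fin n → ℝ) (g : υ → Fin n → ℝ)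
    (A B : Finset ℤ) (i : ℤ) :
    ∑ y ∈ Y, ∑ α ∈ A, ∑ β ∈ B, ec ((i : ℝ) * (α + ∑ j, v j * g y j - β) / P) =
      VY Y g (((i : ℝ) / P) • v) * (hatZ P A i * (starRingEnd ℂ) (hatZ P B i)) := by
  rw [VY, hatZ, hatZ, map_sum, sum_mul_sum, sum_mul]
  refine sum_congr rfl fun y _ => ?_
  rw [mul_sum]
  refine sum_congr rfl fun α _ => ?_
  rw [mul_sum]
  refine sum_congr rfl fun β _ => ?_
  rw [← ec_sub, ← ec_add]
  congr 1
  simp only [Pi.smul_apply, smul_eq_mul, mul_assoc]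
  rw [← mul_sum]
  ring

theorem ker_fFej {n : ℕ} {υ : Type} (P Q : ℕ) (Y : Finset υ) (v : Fin n → ℝ) (g : υ → Fin n → ℝ)
    (A B : Finset ℤ) :
    ∑ y ∈ Y, ∑ α ∈ A, ∑ β ∈ B,
      ‖∑ k ∈ range Q, ec ((k : ℝ) * (α + ∑ j, v j * g y j - β) / P)‖ ^ 2 ≤
      Q * ∑ i ∈ Ioo (-(Q : ℤ)) Q,
        ‖hatZ P A i‖ * ‖VY Y g (((i : ℝ) / P) • v)‖ * ‖hatZ P B i‖ := by
  have e : ((∑ y ∈ Y, ∑ α ∈ A, ∑ β ∈ B,
      ‖∑ k ∈ range Q, ec ((k : ℝ) * (α + ∑ j, v j * g y j - β) / P)‖ ^ 2 : ℝ) : ℂ) =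
      ∑ k ∈ range Q, ∑ k' ∈ range Q, VY Y g (((((k : ℤ) - k' : ℤ) : ℝ) / P) • v) *
        (hatZ P A (k - k') * (starRingEnd ℂ) (hatZ P B (k - k'))) := by
    simp only [Complex.ofReal_sum, normsq_sum, ← prod_fFej, ← ec_sub]
    symm
    simp only [sum_comm (s := range Q) (t := Y), sum_comm (s := range Q) (t := A),
      sum_comm (s := range Q) (t := B)]
    refine sum_congr rfl fun y _ => sum_congr rfl fun α _ => sum_congr rfl fun β _ =>
      sum_congr rfl fun k _ => sum_congr rfl fun k' _ => ?_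
    congr 1
    push_cast
    ring
  refine (le_abs_self _).trans ?_
  rw [← Real.norm_eq_abs, ← Complex.norm_real, e]
  refine (norm_sum_le _ _).trans ?_
  refine (sum_le_card_nsmul _ _ _ fun k hk => (norm_sum_le _ _).trans ?_).trans
    (by rw [card_range, nsmul_eq_mul])
  refine le_trans (le_of_eq ?_) (sum_le_sum_of_subset_of_nonneg
    (s := (range Q).image fun k' : ℕ => (k : ℤ) - k') (fun i hi => ?_) fun _ _ _ => by positivity)
  · rw [sum_image fun x _ y _ h => by omega]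
    refine sum_congr rfl fun k' _ => ?_
    rw [norm_mul, norm_mul, Complex.norm_conj]
    ring
  · obtain ⟨k', h, rfl⟩ := mem_image.1 hi
    rw [mem_range] at h hk
    rw [mem_Ioo]
    omega

theorem fou_fej {n : ℕ} {τ υ : Type} {P Q : ℕ} (hQ : 0 < Q) {K M a : ℝ} (hK : 1 ≤ K)
    (hPQ : 14 * K * Q ≤ P) (hMP : 2 * M < P) (T : Finset τ) (Y : Finset υ) (ψ : τ → Fin n → ℝ)
    (g : υ → Fin n → ℝ) (A : Finset ℤ) (At : τ → Finset ℤ) (I : Finset (τ × υ × ℤ))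
    (hAt : ∀ t ∈ T, ((At t).card : ℝ) ≤ a ∧ ∀ α ∈ At t, |(α : ℝ)| ≤ M) (hI : I ⊆ T ×ˢ Y ×ˢ A)
    (hq : ∀ q ∈ I, ∃ α' ∈ At q.1, |(q.2.2 : ℝ) + ∑ j, ψ q.1 j * g q.2.1 j - α'| ≤ K) :
    (I.card : ℝ) ^ 2 * (Q : ℝ) ^ 2 ≤ 16 * T.card * P * a * ∑ t ∈ T, ∑ i ∈ Ioo (-(Q : ℤ)) Q,
      ‖hatZ P A i‖ ^ 2 * ‖VY Y g (((i : ℝ) / P) • ψ t)‖ ^ 2 := by
  have hQ1 : (1 : ℝ) ≤ Q := by exact_mod_cast hQ
  have hP2 : 2 * (Q : ℝ) ≤ P := by nlinarith
  have hP0 : (0 : ℝ) < P := by linarith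
  have h1 : (I.card : ℝ) * ((Q : ℝ) ^ 2 / 4) ≤ ∑ t ∈ T, ∑ y ∈ Y, ∑ α ∈ A, ∑ β ∈ At t,
      ‖∑ k ∈ range Q, ec ((k : ℝ) * (α + ∑ j, ψ t j * g y j - β) / P)‖ ^ 2 := by
    simp only [← sum_product' (s := Y) (t := A)]
    rw [← sum_product' (s := T) (t := Y ×ˢ A), ← nsmul_eq_mul]
    refine (card_nsmul_le_sum _ _ _ fun q h => ?_).trans
      (sum_le_sum_of_subset_of_nonneg hI fun _ _ _ => by positivity)
    obtain ⟨β, hβ, h2⟩ := hq q h
    refine le_trans ?_ (single_le_sum (f := fun β : ℤ => ‖∑ k ∈ range Q,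
      ec ((k : ℝ) * (q.2.2 + ∑ j, ψ q.1 j * g q.2.1 j - β) / P)‖ ^ 2) (fun _ _ => by positivity) hβ)
    have h3 := ec_half (range Q) (fun k => (k : ℝ) * (q.2.2 + ∑ j, ψ q.1 j * g q.2.1 j - β) / P)
      fun k hk => by
        have h4 : (k : ℝ) ≤ Q := by exact_mod_cast (mem_range.1 hk).le
        rw [abs_div, abs_mul, Nat.abs_cast, Nat.abs_cast, div_le_iff₀ hP0]
        have := mul_le_mul h4 h2 (abs_nonneg _) (by positivity)
        linarith
    rw [card_range] at h3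
    have := pow_le_pow_left₀ (by positivity) h3 2
    linarith
  have h2 := h1.trans (sum_le_sum fun t _ => ker_fFej P Q Y (ψ t) g A (At t))
  rw [← mul_sum] at h2
  have h3 : ∀ t ∈ T, (∑ i ∈ Ioo (-(Q : ℤ)) Q,
      ‖hatZ P A i‖ * ‖VY Y g (((i : ℝ) / P) • ψ t)‖ * ‖hatZ P (At t) i‖) ^ 2 ≤
      P * a * ∑ i ∈ Ioo (-(Q : ℤ)) Q,
        ‖hatZ P A i‖ ^ 2 * ‖VY Y g (((i : ℝ) / P) • ψ t)‖ ^ 2 := fun t ht => by
    have h4 := ort1 (P := P) (by exact_mod_cast hP0) (-(Q : ℤ)) (Ioo (-(Q : ℤ)) Q) (fun i hi => by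
      have : 2 * Q ≤ P := by exact_mod_cast hP2
      rw [mem_Ioo] at hi
      rw [mem_Ico]
      omega) (At t) (fun s => s) (fun _ => 1) (fun _ _ => norm_one.le) fun s hs s' hs' => by
        have := (abs_sub (s : ℝ) s').trans (add_le_add ((hAt t ht).2 s hs) ((hAt t ht).2 s' hs'))
        have h5 : |(s : ℝ) - s'| < P := by linarith
        exact_mod_cast h5
    simp only [one_mul] at h4
    have h5 : (((At t ×ˢ At t).filter fun p => p.1 = p.2).card : ℝ) ≤ a :=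
      le_trans (Nat.cast_le.2 (card_le_card_of_injOn Prod.fst
        (fun p hp => (mem_product.1 (mem_filter.1 hp).1).1) fun p hp p' hp' e =>
          Prod.ext e ((mem_filter.1 hp).2.symm.trans (e.trans (mem_filter.1 hp').2)))) (hAt t ht).1
    refine (sum_mul_sq_le_sq_mul_sq _ _ _).trans ?_
    rw [mul_comm]
    simp only [mul_pow]
    exact mul_le_mul_of_nonneg_right (h4.trans (mul_le_mul_of_nonneg_left h5 hP0.le))
      (by positivity)
  have h4 := sq_sum_le_card_mul_sum_sq.trans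
    (mul_le_mul_of_nonneg_left (sum_le_sum h3) (Nat.cast_nonneg T.card))
  rw [← mul_sum] at h4
  generalize ∑ t ∈ T, ∑ i ∈ Ioo (-(Q : ℤ)) Q,
    ‖hatZ P A i‖ * ‖VY Y g (((i : ℝ) / P) • ψ t)‖ * ‖hatZ P (At t) i‖ = X at h2 h4
  have h5 : (I.card : ℝ) * Q ≤ 4 * X :=
    le_of_mul_le_mul_left (a := (Q : ℝ)) (by linarith) (by linarith)
  have h6 := pow_le_pow_left₀ (by positivity) h5 2
  rw [mul_pow] at h6
  linarith

end Vale.Agent.P127
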