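import Vale.Agent.P127.Fou.Ort

/-! # P127 Fou/NC: the Fourier transform of a non concentrated set does not concentrate.
Lb = ceil (P / (16 r)) (Nat.ceil, at least 1, b < Lb iff b < P/(16 r)). For |i - i0| at most r the sum over b < Lb of ec ((i - i0) b / P) has modulus at least Lb/2 (ec_half).
Its product with hatZ P A i is the sum over s = (alpha, b) in A x range Lb of ec (-i0 b / P) * ec (i (alpha + b) / P); apply ort1 with a = -Q, f s = alpha + b (differences at most 2 M + P/16 < P).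
Pairs with alpha + b = alpha' + b': (alpha, b, alpha') determine b', and |alpha' - alpha| is at most Lb, so at most |A| Lb K Lb^(1 - sigma) pairs. Finally Lb^(-sigma) is at most (16 r / P)^sigma, 16^sigma at most 16. -/

namespace Vale.Agent.P127

open Finset
open scoped Classical

theorem pairs_fNC {β : Type} (S : Finset β) (f : β → ℤ) {B : ℝ}
    (h : ∀ s ∈ S, ((S.filter fun s' => f s = f s').card : ℝ) ≤ B) :
    (((S ×ˢ S).filter fun p => f p.1 = f p.2).card : ℝ) ≤ S.card * B := by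
  have e : ((S ×ˢ S).filter fun p => f p.1 = f p.2).card =
      ∑ s ∈ S, (S.filter fun s' => f s = f s').card := by
    simp only [card_filter, sum_product]
  rw [e, Nat.cast_sum, ← nsmul_eq_mul]
  exact sum_le_card_nsmul _ _ _ h

theorem fib_fNC (A : Finset ℤ) (L : ℕ) {s : ℤ × ℕ} (hs : s ∈ A ×ˢ range L) :
    ((A ×ˢ range L).filter fun s' : ℤ × ℕ => s.1 + s.2 = s'.1 + s'.2).card ≤
      (A.filter fun α : ℤ => |(α : ℝ) - s.1| ≤ L).card := by
  refine card_le_card_of_injOn Prod.fst (fun t ht => ?_) fun t ht t' ht' e => ?_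
  · obtain ⟨h1, h2⟩ := mem_filter.1 (mem_coe.1 ht)
    have h3 := mem_range.1 (mem_product.1 h1).2
    have h4 := mem_range.1 (mem_product.1 hs).2
    refine mem_coe.2 (mem_filter.2 ⟨(mem_product.1 h1).1, ?_⟩)
    have h5 : |t.1 - s.1| ≤ (L : ℤ) := abs_le.2 ⟨by omega, by omega⟩
    exact_mod_cast h5
  · have h1 := (mem_filter.1 (mem_coe.1 ht)).2
    have h2 := (mem_filter.1 (mem_coe.1 ht')).2
    exact Prod.ext e (by omega)

theorem prod_fNC (P L : ℕ) (A : Finset ℤ) (i0 : ℝ) (i : ℤ) :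
    ∑ s ∈ A ×ˢ range L, ec (-i0 * s.2 / P) * ec ((i : ℝ) * ((s.1 + s.2 : ℤ) : ℝ) / P) =
      hatZ P A i * ∑ b ∈ range L, ec ((i - i0) * b / P) := by
  rw [hatZ, sum_mul_sum, sum_product]
  refine sum_congr rfl fun α _ => sum_congr rfl fun b _ => ?_
  rw [← ec_add, ← ec_add]
  congr 1
  push_cast
  ring

theorem fin_fNC {T P a K L r σ : ℝ} (hP : 0 < P) (ha : 0 ≤ a) (hK : 0 ≤ K) (hL : 0 < L)
    (hr : 0 < r) (h0 : 0 < σ) (h1 : σ ≤ 1) (hLP : P / (16 * r) ≤ L)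
    (h : (L / 2) ^ 2 * T ≤ P * (a * L * (K * L ^ (1 - σ)))) : T ≤ 64 * K * P * a * (r / P) ^ σ := by
  have e : L ^ (1 - σ) = L * L⁻¹ ^ σ := by
    rw [Real.rpow_sub hL, Real.rpow_one, Real.inv_rpow hL.le, div_eq_mul_inv]
  have h2 : L⁻¹ ≤ 16 * (r / P) := by
    rw [inv_le_comm₀ hL (by positivity)]
    refine le_trans (le_of_eq ?_) hLP
    field_simp
  have h3 : L⁻¹ ^ σ ≤ 16 * (r / P) ^ σ := by
    refine (Real.rpow_le_rpow (by positivity) h2 h0.le).trans ?_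
    rw [Real.mul_rpow (by norm_num) (by positivity)]
    refine mul_le_mul_of_nonneg_right ?_ (by positivity)
    simpa using Real.rpow_le_rpow_of_exponent_le (by norm_num : (1 : ℝ) ≤ 16) h1
  have h4 : (L / 2) ^ 2 * T ≤ (L / 2) ^ 2 * (4 * K * P * a * L⁻¹ ^ σ) := by
    rw [e] at h
    refine h.trans (le_of_eq ?_)
    ring
  refine (le_of_mul_le_mul_left h4 (by positivity)).trans ?_
  calc 4 * K * P * a * L⁻¹ ^ σ ≤ 4 * K * P * a * (16 * (r / P) ^ σ) := by gcongr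
    _ = _ := by ring

theorem fou_nc {P Q : ℕ} (hP : 0 < P) (hQ : 2 * Q ≤ P) {σ K M : ℝ} (h0 : 0 < σ) (h1 : σ ≤ 1)
    (A : Finset ℤ) (hM : ∀ α ∈ A, |(α : ℝ)| ≤ M) (hMP : 4 * M ≤ P)
    (hA : ∀ a r : ℝ, 1 ≤ r →
      ((A.filter fun α : ℤ => |(α : ℝ) - a| ≤ r).card : ℝ) ≤ K * r ^ (1 - σ))
    (i0 r : ℝ) (hr : 1 ≤ r) :
    ∑ i ∈ (Ioo (-(Q : ℤ)) Q).filter (fun i : ℤ => |(i : ℝ) - i0| ≤ r), ‖hatZ P A i‖ ^ 2 ≤
      64 * K * P * A.card * (r / P) ^ σ := by
  have hP' : (0 : ℝ) < P := by exact_mod_cast hP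
  have hr0 : 0 < r := by linarith
  have hK : 0 ≤ K := by simpa using (Nat.cast_nonneg _).trans (hA 0 1 le_rfl)
  obtain ⟨L, hL⟩ : ∃ L, L = ⌈(P : ℝ) / (16 * r)⌉₊ := ⟨_, rfl⟩
  have hL1 : 1 ≤ L := hL ▸ Nat.ceil_pos.2 (by positivity)
  have hL1' : (1 : ℝ) ≤ L := by exact_mod_cast hL1
  have hb : ∀ b ∈ range L, (b : ℝ) * (16 * r) < P := fun b hb =>
    (lt_div_iff₀ (by positivity)).1 (Nat.lt_ceil.1 (hL ▸ mem_range.1 hb))
  refine fin_fNC (L := L) hP' (Nat.cast_nonneg _) hK (by linarith) hr0 h0 h1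
    (hL ▸ Nat.le_ceil _) ?_
  have h2 := ort1 hP (-(Q : ℤ)) ((Ioo (-(Q : ℤ)) Q).filter fun i : ℤ => |(i : ℝ) - i0| ≤ r)
    (fun i hi => by
      have := mem_Ioo.1 (mem_filter.1 hi).1
      exact mem_Ico.2 ⟨this.1.le, by omega⟩)
    (A ×ˢ range L) (fun s => s.1 + s.2) (fun s => ec (-i0 * s.2 / P)) (fun s _ => (norm_ec _).le)
    fun s hs t ht => by
      have a1 := abs_le.1 (hM _ (mem_product.1 hs).1)
      have a2 := abs_le.1 (hM _ (mem_product.1 ht).1)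
      have a3 := hb _ (mem_product.1 hs).2
      have a4 := hb _ (mem_product.1 ht).2
      have a5 : (0 : ℝ) ≤ s.2 := Nat.cast_nonneg _
      have a6 : (0 : ℝ) ≤ t.2 := Nat.cast_nonneg _
      have a7 : |((s.1 : ℝ) + s.2) - (t.1 + t.2)| < P :=
        abs_lt.2 ⟨by nlinarith, by nlinarith⟩
      exact_mod_cast a7
  have h3 := pairs_fNC (A ×ˢ range L) (fun s => s.1 + s.2) (B := K * (L : ℝ) ^ (1 - σ))
    fun s hs => le_trans (by exact_mod_cast fib_fNC A L hs) (hA s.1 L hL1')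
  rw [card_product, card_range, Nat.cast_mul] at h3
  refine le_trans ?_ (h2.trans (mul_le_mul_of_nonneg_left h3 hP'.le))
  rw [mul_sum]
  refine sum_le_sum fun i hi => ?_
  have h4 := ec_half (range L) (fun b => (i - i0) * b / P) fun b hb' => by
    rw [abs_div, abs_mul, Nat.abs_cast, Nat.abs_cast, div_le_iff₀ hP']
    have a1 := hb b hb'
    have a2 := mul_le_mul_of_nonneg_right (mem_filter.1 hi).2 (Nat.cast_nonneg b : (0 : ℝ) ≤ b)
    linarith
  rw [card_range] at h4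
  rw [prod_fNC, norm_mul, mul_pow, mul_comm]
  gcongr

end Vale.Agent.P127
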