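import Vale.Agent.P127.Fou.Def

/-! # P127 Fou/Ort: orthogonality of characters.
ort0: geometric sum, ec (m/P) is a P-th root of unity different from 1 when 0 < |m| < P (Complex.exp_eq_one_iff, geom_sum_eq or mul_geom_sum; shift i = a + j).
ortd: product of ort0 (ec_sum, Finset.prod_univ_sum). ort1, ortn: enlarge J to the full range, normsq_sum, exchange the sums, ec_sub, then every pair (s,s') gives P (resp. P^n) times a number of modulus at most 1, or 0. -/

namespace Vale.Agent.P127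

open Finset
open scoped Classical

theorem pow_fOrt (x : ℝ) (j : ℕ) : ec (j * x) = ec x ^ j := by
  induction j with
  | zero => simp [ec_zero]
  | succ j ih => rw [Nat.cast_succ, add_mul, one_mul, ec_add, ih, pow_succ]

theorem int_fOrt (m : ℤ) : ec m = 1 := by
  unfold ec
  rw [← Complex.exp_int_mul_two_pi_mul_I m]
  congr 1
  push_cast
  ring

theorem one_fOrt {x : ℝ} (h : ec x = 1) : ∃ n : ℤ, x = n := by
  obtain ⟨n, hn⟩ := Complex.exp_eq_one_iff.1 h
  refine ⟨n, ?_⟩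
  have h2 := congrArg Complex.im hn
  simp at h2
  have h3 := Real.pi_pos
  apply mul_left_cancel₀ (show 2 * Real.pi ≠ 0 by positivity)
  linarith

theorem gen_fOrt {ι β γ : Type} [DecidableEq γ] (I J : Finset ι) (hJ : J ⊆ I) (S : Finset β)
    (f : β → γ) (c : β → ℂ) (hc : ∀ s ∈ S, ‖c s‖ ≤ 1) (g : ι → β → ℂ) {Q : ℝ} (hQ : 0 ≤ Q)
    (h : ∀ s ∈ S, ∀ s' ∈ S, ∑ i ∈ I, g i s * (starRingEnd ℂ) (g i s') =
      if f s = f s' then (Q : ℂ) else 0) :
    ∑ i ∈ J, ‖∑ s ∈ S, c s * g i s‖ ^ 2 ≤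
      Q * (((S ×ˢ S).filter fun p => f p.1 = f p.2).card : ℝ) := by
  refine (sum_le_sum_of_subset_of_nonneg hJ fun _ _ _ => by positivity).trans ?_
  have e : ((∑ i ∈ I, ‖∑ s ∈ S, c s * g i s‖ ^ 2 : ℝ) : ℂ) =
      ∑ p ∈ S ×ˢ S, c p.1 * (starRingEnd ℂ) (c p.2) * if f p.1 = f p.2 then (Q : ℂ) else 0 := by
    rw [Complex.ofReal_sum, sum_congr rfl fun i _ => normsq_sum S fun s => c s * g i s, sum_comm,
      sum_product]
    refine sum_congr rfl fun s hs => ?_
    rw [sum_comm]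
    refine sum_congr rfl fun s' hs' => ?_
    rw [← h s hs s' hs', mul_sum]
    refine sum_congr rfl fun i _ => ?_
    rw [map_mul]
    ring
  have e2 := congrArg norm e
  rw [Complex.norm_real, Real.norm_eq_abs] at e2
  refine (le_abs_self _).trans (e2.le.trans ((norm_sum_le _ _).trans ?_))
  rw [card_filter, Nat.cast_sum, mul_sum]
  refine sum_le_sum fun p hp => ?_
  have h1 := hc _ (mem_product.1 hp).1
  have h2 := hc _ (mem_product.1 hp).2
  split_ifs
  · rw [norm_mul, norm_mul, Complex.norm_conj, Complex.norm_real, Real.norm_of_nonneg hQ,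
      Nat.cast_one, mul_one]
    exact mul_le_of_le_one_left hQ (mul_le_one₀ h1 (norm_nonneg _) h2)
  · simp

theorem ort0 {P : ℕ} (hP : 0 < P) (a m : ℤ) (hm : |m| < P) :
    ∑ i ∈ Ico a (a + P), ec ((i : ℝ) * m / P) = if m = 0 then (P : ℂ) else 0 := by
  have hP' : (P : ℝ) ≠ 0 := by positivity
  split_ifs with h0
  · simp [h0, ec_zero]
  have hz : ec ((m : ℝ) / P) ≠ 1 := by
    intro h
    obtain ⟨n, hn⟩ := one_fOrt h
    rw [div_eq_iff hP'] at hn
    have h1 : m = n * P := by exact_mod_cast hn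
    have h2 : (P : ℤ) ∣ m := ⟨n, by rw [h1, mul_comm]⟩
    exact h0 (Int.eq_zero_of_abs_lt_dvd h2 hm)
  have e : ∀ j : ℕ, ec (((a + j : ℤ) : ℝ) * m / P) = ec ((a : ℝ) * m / P) * ec ((m : ℝ) / P) ^ j := by
    intro j
    rw [← pow_fOrt, ← ec_add]
    congr 1
    push_cast
    ring
  rw [Int.Ico_eq_finset_map, sum_map, add_sub_cancel_left, Int.toNat_natCast]
  simp only [Function.Embedding.trans_apply, Nat.castEmbedding_apply, addLeftEmbedding_apply, e]
  rw [← mul_sum, geom_sum_eq hz, ← pow_fOrt, mul_div_cancel₀ _ hP', int_fOrt, sub_self, zero_div,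
    mul_zero]

theorem ortd {n P : ℕ} (hP : 0 < P) (a : ℤ) (m : Fin n → ℤ) (hm : ∀ j, |m j| < P) :
    ∑ i ∈ Fintype.piFinset (fun _ : Fin n => Ico a (a + P)), ec (∑ j, (i j : ℝ) * m j / P) =
      if m = 0 then (P : ℂ) ^ n else 0 := by
  simp only [ec_sum]
  rw [← prod_univ_sum (fun _ : Fin n => Ico a (a + P)) fun j (i : ℤ) => ec ((i : ℝ) * m j / P),
    prod_congr rfl fun j _ => ort0 hP a (m j) (hm j)]
  split_ifs with h0
  · simp [h0]
  · obtain ⟨j, hj⟩ := Function.ne_iff.1 h0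
    exact prod_eq_zero (mem_univ j) (if_neg hj)

theorem ort1 {β : Type} {P : ℕ} (hP : 0 < P) (a : ℤ) (J : Finset ℤ) (hJ : J ⊆ Ico a (a + P))
    (S : Finset β) (f : β → ℤ) (c : β → ℂ) (hc : ∀ s ∈ S, ‖c s‖ ≤ 1)
    (hf : ∀ s ∈ S, ∀ s' ∈ S, |f s - f s'| < P) :
    ∑ i ∈ J, ‖∑ s ∈ S, c s * ec ((i : ℝ) * f s / P)‖ ^ 2 ≤
      P * (((S ×ˢ S).filter fun p => f p.1 = f p.2).card : ℝ) := by
  refine gen_fOrt _ J hJ S f c hc (fun i s => ec ((i : ℝ) * f s / P)) (Nat.cast_nonneg P)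
    fun s hs s' hs' => ?_
  have h1 := ort0 hP a _ (hf s hs s' hs')
  simp only [sub_eq_zero] at h1
  rw [Complex.ofReal_natCast, ← h1]
  refine sum_congr rfl fun i _ => ?_
  rw [← ec_sub]
  congr 1
  push_cast
  ring

theorem ortn {β : Type} {n P : ℕ} (hP : 0 < P) (a : ℤ) (J : Finset (Fin n → ℤ))
    (hJ : ∀ i ∈ J, ∀ j, a ≤ i j ∧ i j < a + P) (S : Finset β) (f : β → Fin n → ℤ)
    (hf : ∀ s ∈ S, ∀ s' ∈ S, ∀ j, |f s j - f s' j| < P) :
    ∑ i ∈ J, ‖∑ s ∈ S, ec (∑ j, (i j : ℝ) * f s j / P)‖ ^ 2 ≤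
      (P : ℝ) ^ n * (((S ×ˢ S).filter fun p => f p.1 = f p.2).card : ℝ) := by
  have h := gen_fOrt (Fintype.piFinset fun _ : Fin n => Ico a (a + P)) J
    (fun i hi => Fintype.mem_piFinset.2 fun j => mem_Ico.2 (hJ i hi j)) S f (fun _ => 1)
    (fun _ _ => norm_one.le) (fun i s => ec (∑ j, (i j : ℝ) * f s j / P))
    (pow_nonneg (Nat.cast_nonneg P) n) fun s hs s' hs' => by
      have h1 := ortd hP a (f s - f s') (hf s hs s' hs')
      simp only [sub_eq_zero] at h1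
      rw [Complex.ofReal_pow, Complex.ofReal_natCast, ← h1]
      refine sum_congr rfl fun i _ => ?_
      rw [← ec_sub, ← sum_sub_distrib]
      congr 1
      refine sum_congr rfl fun j _ => ?_
      rw [Pi.sub_apply]
      push_cast
      ring
  simpa only [one_mul] using h

end Vale.Agent.P127
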