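import Vale.Agent.P127.Fou.Def

/-! # P127 Fou/Pair: many differences of points of the large spectrum lie in the large spectrum.
Choose theta p of modulus at most 1 with theta p * VY (x p) = |VY (x p)| (Complex.exists_norm_mul_eq_self or conj z / |z|). al Y0 card PP is at most |sum_y sum_p theta p ec <x p, g y>|; Cauchy-Schwarz in y and normsq_sum, ec_sub give
(al Y0 card PP)^2 at most Y0 * sum over p, p' of |VY (x p - x p')|. Each term is at most Y0 (norm_VY), the terms below al^2/2 Y0 contribute at most half. -/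

namespace Vale.Agent.P127

open Finset
open scoped Classical

theorem sq_fPair {n : ℕ} {ι υ : Type} (Y : Finset υ) (g : υ → Fin n → ℝ) (PP : Finset ι)
    (x : ι → Fin n → ℝ) (θ : ι → ℂ) (hθ : ∀ p, ‖θ p‖ = 1) :
    ∑ y ∈ Y, ‖∑ p ∈ PP, θ p * ec (∑ j, x p j * g y j)‖ ^ 2 ≤
      ∑ q ∈ PP ×ˢ PP, ‖VY Y g (x q.1 - x q.2)‖ := by
  have e : ((∑ y ∈ Y, ‖∑ p ∈ PP, θ p * ec (∑ j, x p j * g y j)‖ ^ 2 : ℝ) : ℂ) =
      ∑ q ∈ PP ×ˢ PP, θ q.1 * (starRingEnd ℂ) (θ q.2) * VY Y g (x q.1 - x q.2) := by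
    rw [Complex.ofReal_sum]
    simp only [normsq_sum, VY, mul_sum]
    rw [sum_comm (s := PP ×ˢ PP)]
    refine sum_congr rfl fun y _ => ?_
    rw [sum_product]
    refine sum_congr rfl fun p _ => sum_congr rfl fun p' _ => ?_
    simp only [Pi.sub_apply, sub_mul, sum_sub_distrib, ec_sub, map_mul]
    ring
  refine (le_abs_self _).trans ?_
  rw [← Real.norm_eq_abs, ← Complex.norm_real, e]
  refine (norm_sum_le _ _).trans (le_of_eq (sum_congr rfl fun q _ => ?_))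
  rw [norm_mul, norm_mul, Complex.norm_conj, hθ, hθ, one_mul, one_mul]

theorem fou_pair {n : ℕ} {ι υ : Type} (Y : Finset υ) (g : υ → Fin n → ℝ) (PP : Finset ι)
    (x : ι → Fin n → ℝ) {al Y0 : ℝ} (hal : 0 < al) (hY0 : 0 < Y0) (hY : (Y.card : ℝ) ≤ Y0)
    (h : ∀ p ∈ PP, al * Y0 ≤ ‖VY Y g (x p)‖) :
    al ^ 2 / 2 * (PP.card : ℝ) ^ 2 ≤
      (((PP ×ˢ PP).filter fun q => al ^ 2 / 2 * Y0 ≤ ‖VY Y g (x q.1 - x q.2)‖).card : ℝ) := by
  choose θ hθ hθ' using fun p => Complex.exists_norm_eq_mul_self (VY Y g (x p))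
  have h1 : al * Y0 * PP.card ≤ ∑ y ∈ Y, ‖∑ p ∈ PP, θ p * ec (∑ j, x p j * g y j)‖ := by
    have a := card_nsmul_le_sum PP (fun p => ‖VY Y g (x p)‖) _ h
    rw [nsmul_eq_mul, mul_comm] at a
    refine a.trans ((le_abs_self _).trans (le_trans (le_of_eq ?_) (norm_sum_le _ _)))
    rw [← Real.norm_eq_abs, ← Complex.norm_real, Complex.ofReal_sum, sum_comm]
    refine congrArg _ (sum_congr rfl fun p _ => ?_)
    rw [hθ', VY, mul_sum]
  have h2 := sq_sum_le_card_mul_sum_sq (s := Y)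
    (f := fun y => ‖∑ p ∈ PP, θ p * ec (∑ j, x p j * g y j)‖)
  have h3 := sq_fPair Y g PP x θ hθ
  have h4 : ∑ q ∈ PP ×ˢ PP, ‖VY Y g (x q.1 - x q.2)‖ ≤ ∑ q ∈ PP ×ˢ PP,
      ((if al ^ 2 / 2 * Y0 ≤ ‖VY Y g (x q.1 - x q.2)‖ then Y0 else 0) + al ^ 2 / 2 * Y0) := by
    refine sum_le_sum fun q _ => ?_
    have b : 0 ≤ al ^ 2 / 2 * Y0 := by positivity
    split_ifs with hq
    · linarith [norm_VY Y g (x q.1 - x q.2)]
    · linarith [not_le.1 hq]
  rw [sum_add_distrib, ← sum_filter, sum_const, sum_const, card_product, nsmul_eq_mul,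
    nsmul_eq_mul, Nat.cast_mul] at h4
  have h5 := pow_le_pow_left₀ (by positivity) h1 2
  have h6 := mul_le_mul hY (h3.trans h4) (sum_nonneg fun y _ => sq_nonneg _) hY0.le
  refine le_of_mul_le_mul_right ?_ (pow_pos hY0 2)
  nlinarith

end Vale.Agent.P127
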