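import Vale.Agent.P127.Comb

/-! # P127 Fou/Pig: pigeonholing the weights.
J = Ioo (-Q) Q. h2 with i0 = 0, r = Q gives total weight at most L B (also every w i at most L B). Remove from J x T: (a) |i| at most Q/R (h2 with r = Q/R: at most L N * L B / R^sigma), (b) w i < B / (8 L^2 Q) (card J at most 2 Q),
(c) v i t < 1/(2 L^2). Each part contributes at most N B / (4 L), so the sum of w i over the remaining pairs is at least N B / (4 L). Dyadic class floor (logb 2 (w i / wmin)), wmin = B / (8 L^2 Q), takes at most L values;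
in the heaviest class w0 <= w i < 2 w0. Z0 = B / w0, Xi = the i of J with Q/R <= |i| and w0 <= w i, PP = the remaining pairs in the class. -/

namespace Vale.Agent.P127

open Finset
open scoped Classical

theorem fou_pig {τ : Type} (T : Finset τ) {Q : ℕ} (w : ℤ → ℝ) (v : ℤ → τ → ℝ) {σ N B L R : ℝ}
    (h0 : 0 < σ) (hN : 0 < N) (hB : 0 < B) (hL : 1 ≤ L) (hR : 1 ≤ R) (hRQ : R ≤ Q)
    (hRσ : 4 * L ^ 3 ≤ R ^ σ) (hlog : Real.logb 2 (8 * L ^ 3 * Q) + 1 ≤ L)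
    (hT : (T.card : ℝ) ≤ L * N) (hw : ∀ i, 0 ≤ w i) (hv : ∀ i t, 0 ≤ v i t ∧ v i t ≤ 1)
    (h1 : N * B / L ≤ ∑ t ∈ T, ∑ i ∈ Ioo (-(Q : ℤ)) Q, w i * v i t ^ 2)
    (h2 : ∀ i0 r : ℝ, 1 ≤ r → ∑ i ∈ (Ioo (-(Q : ℤ)) Q).filter (fun i : ℤ => |(i : ℝ) - i0| ≤ r),
      w i ≤ L * B * (r / Q) ^ σ) :
    ∃ (Z0 : ℝ) (Ξ : Finset ℤ) (PP : Finset (ℤ × τ)), 0 < Z0 ∧
      (∀ i ∈ Ξ, Q / R ≤ |(i : ℝ)| ∧ |(i : ℝ)| ≤ Q) ∧ PP ⊆ Ξ ×ˢ T ∧
      (∀ p ∈ PP, 1 / (2 * L ^ 2) ≤ v p.1 p.2) ∧ N * Z0 / (8 * L ^ 2) ≤ PP.card ∧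
      ∀ i0 r : ℝ, 1 ≤ r →
        ((Ξ.filter fun i : ℤ => |(i : ℝ) - i0| ≤ r).card : ℝ) ≤ L * Z0 * (r / Q) ^ σ := by
  have hQ : (1 : ℝ) ≤ Q := hR.trans hRQ
  have hQ0 : (0 : ℝ) < Q := by linarith
  have hL0 : 0 < L := by linarith
  have hR0 : 0 < R := by linarith
  obtain ⟨J, hJ⟩ : ∃ J : Finset ℤ, J = Ioo (-(Q : ℤ)) Q := ⟨_, rfl⟩
  rw [← hJ] at h1 h2
  have hJm : ∀ i ∈ J, |(i : ℝ)| ≤ Q := fun i hi => by
    rw [hJ, mem_Ioo] at hi
    exact_mod_cast abs_le.2 ⟨hi.1.le, hi.2.le⟩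
  have hJc : (J.card : ℝ) ≤ 2 * Q := by
    have h : J.card ≤ 2 * Q := by rw [hJ, Int.card_Ioo]; omega
    exact_mod_cast h
  have hW : ∑ i ∈ J, w i ≤ L * B := by
    have h := h2 0 Q hQ
    rwa [filter_true_of_mem (fun i hi => by rw [sub_zero]; exact hJm i hi), div_self hQ0.ne',
      Real.one_rpow, mul_one] at h
  obtain ⟨m, hm⟩ : ∃ m : ℝ, m = B / (8 * L ^ 2 * Q) := ⟨_, rfl⟩
  obtain ⟨c, hc⟩ : ∃ c : ℝ, c = B / (4 * L ^ 2) := ⟨_, rfl⟩
  have hm0 : 0 < m := by rw [hm]; positivity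
  have hc0 : 0 < c := by rw [hc]; positivity
  have ha : ∑ i ∈ J, (if |(i : ℝ) - 0| ≤ Q / R then w i else 0) ≤ c := by
    rw [← sum_filter]
    refine (h2 0 (Q / R) ((one_le_div hR0).2 hRQ)).trans ?_
    have e : (Q / R / Q : ℝ) = R⁻¹ := by field_simp
    have e' : c = L * B * (4 * L ^ 3)⁻¹ := by rw [hc]; field_simp
    rw [e, e', Real.inv_rpow hR0.le]
    exact mul_le_mul_of_nonneg_left (inv_anti₀ (by positivity) hRσ) (by positivity)
  have hb : ∑ _i ∈ J, m ≤ c := by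
    rw [sum_const, nsmul_eq_mul]
    refine (mul_le_mul_of_nonneg_right hJc hm0.le).trans (le_of_eq ?_)
    rw [hm, hc]
    field_simp
    ring
  have hd : ∑ i ∈ J, w i * (1 / (2 * L ^ 2)) ^ 2 ≤ c := by
    rw [← sum_mul]
    refine (mul_le_mul_of_nonneg_right hW (by positivity)).trans ?_
    have e : L * B * (1 / (2 * L ^ 2)) ^ 2 = c / L := by rw [hc]; field_simp; ring
    rw [e]
    exact div_le_self hc0.le hL
  obtain ⟨G, hG⟩ : ∃ G : Finset (ℤ × τ), G = (J ×ˢ T).filter fun p =>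
      Q / R ≤ |(p.1 : ℝ)| ∧ m ≤ w p.1 ∧ 1 / (2 * L ^ 2) ≤ v p.1 p.2 := ⟨_, rfl⟩
  have ht : ∀ t ∈ T, ∑ i ∈ J, w i * v i t ^ 2 ≤ 3 * c + ∑ i ∈ J,
      (if Q / R ≤ |(i : ℝ)| ∧ m ≤ w i ∧ 1 / (2 * L ^ 2) ≤ v i t then w i else 0) := by
    intro t _
    refine le_trans (sum_le_sum (g := fun i : ℤ => (if |(i : ℝ) - 0| ≤ Q / R then w i else 0) + m +
      w i * (1 / (2 * L ^ 2)) ^ 2 +
      (if Q / R ≤ |(i : ℝ)| ∧ m ≤ w i ∧ 1 / (2 * L ^ 2) ≤ v i t then w i else 0))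
      fun i _ => ?_) ?_
    · have k1 : w i * v i t ^ 2 ≤ w i :=
        mul_le_of_le_one_right (hw i) (pow_le_one₀ (hv i t).1 (hv i t).2)
      have k2 : 0 ≤ w i * (1 / (2 * L ^ 2)) ^ 2 := mul_nonneg (hw i) (sq_nonneg _)
      have k3 : 0 ≤ (if |(i : ℝ) - 0| ≤ Q / R then w i else 0) := ite_nonneg (hw i) le_rfl
      by_cases k : Q / R ≤ |(i : ℝ)| ∧ m ≤ w i ∧ 1 / (2 * L ^ 2) ≤ v i t
      · rw [if_pos k]
        linarith
      · rw [if_neg k]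
        rcases not_and_or.1 k with k | k
        · rw [if_pos (by rw [sub_zero]; exact (not_le.1 k).le)]
          linarith
        · rcases not_and_or.1 k with k | k
          · linarith [not_le.1 k]
          · linarith [mul_le_mul_of_nonneg_left
              (pow_le_pow_left₀ (hv i t).1 (not_le.1 k).le 2) (hw i)]
    · rw [sum_add_distrib, sum_add_distrib, sum_add_distrib]
      linarith
  have hS : L * (N * c) ≤ ∑ p ∈ G, w p.1 := by
    have k1 := h1.trans (sum_le_sum ht)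
    rw [sum_add_distrib, sum_const, nsmul_eq_mul] at k1
    have k2 := mul_le_mul_of_nonneg_right hT (by positivity : 0 ≤ 3 * c)
    have k3 : N * B / L = 4 * (L * (N * c)) := by rw [hc]; field_simp
    rw [hG, sum_filter, sum_product_right]
    linarith
  have hk : ∀ i : ℤ, ∃ n : ℕ, m ≤ w i → m * 2 ^ n ≤ w i ∧ w i ≤ 2 * (m * 2 ^ n) := by
    intro i
    by_cases h : m ≤ w i
    · obtain ⟨n, k1, k2⟩ := exists_nat_pow_near ((one_le_div hm0).2 h) one_lt_two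
      rw [le_div_iff₀ hm0] at k1
      rw [div_lt_iff₀ hm0, pow_succ] at k2
      exact ⟨n, fun _ => ⟨by linarith, by linarith⟩⟩
    · exact ⟨0, fun h' => absurd h' h⟩
  choose k hk using hk
  have hGm : ∀ p ∈ G, (p.1 ∈ J ∧ p.2 ∈ T) ∧ Q / R ≤ |(p.1 : ℝ)| ∧ m ≤ w p.1 ∧
      1 / (2 * L ^ 2) ≤ v p.1 p.2 := fun p hp => by
    rwa [hG, mem_filter, mem_product] at hp
  have hmap : ∀ p ∈ G, k p.1 ∈ range (⌊Real.logb 2 (8 * L ^ 3 * Q)⌋₊ + 1) := by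
    intro p hp
    obtain ⟨k1, -, k2, -⟩ := hGm p hp
    have k3 := (hk p.1 k2).1.trans ((single_le_sum (fun i _ => hw i) k1.1).trans hW)
    have e : L * B = m * (8 * L ^ 3 * Q) := by rw [hm]; field_simp
    rw [e] at k3
    refine mem_range.2 (Nat.lt_succ_of_le (Nat.le_floor ?_))
    rw [Real.le_logb_iff_rpow_le one_lt_two (by positivity), Real.rpow_natCast]
    exact le_of_mul_le_mul_left k3 hm0
  have hlog0 : 0 ≤ Real.logb 2 (8 * L ^ 3 * Q) := by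
    refine Real.logb_nonneg one_lt_two ?_
    nlinarith [one_le_pow₀ (n := 3) hL]
  obtain ⟨n, -, hn⟩ := exists_le_sum_fiber_of_maps_to_of_nsmul_le_sum (w := fun p => w p.1)
    (b := N * c) hmap nonempty_range_add_one (by
      rw [card_range, nsmul_eq_mul]
      refine le_trans (mul_le_mul_of_nonneg_right ?_ (by positivity)) hS
      push_cast
      linarith [Nat.floor_le hlog0])
  obtain ⟨w0, hw0⟩ : ∃ w0 : ℝ, w0 = m * 2 ^ n := ⟨_, rfl⟩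
  have hw00 : 0 < w0 := by rw [hw0]; positivity
  have hP : ∀ p ∈ G.filter fun p => k p.1 = n, w0 ≤ w p.1 ∧ w p.1 ≤ 2 * w0 := fun p hp => by
    rw [hw0, ← (mem_filter.1 hp).2]
    exact hk p.1 (hGm p (mem_filter.1 hp).1).2.2.1
  refine ⟨B / w0, J.filter fun i : ℤ => Q / R ≤ |(i : ℝ)| ∧ w0 ≤ w i, G.filter fun p => k p.1 = n,
    div_pos hB hw00, fun i hi => ⟨(mem_filter.1 hi).2.1, hJm i (mem_filter.1 hi).1⟩,
    fun p hp => ?_, fun p hp => (hGm p (mem_filter.1 hp).1).2.2.2, ?_, fun i0 r hr => ?_⟩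
  · have k1 := hGm p (mem_filter.1 hp).1
    exact mem_product.2 ⟨mem_filter.2 ⟨k1.1.1, k1.2.1, (hP p hp).1⟩, k1.1.2⟩
  · have k1 := hn.trans (sum_le_card_nsmul _ _ _ fun p hp => (hP p hp).2)
    have e : N * (B / w0) / (8 * L ^ 2) = N * c / (2 * w0) := by rw [hc]; field_simp; ring
    rw [e, div_le_iff₀ (by positivity)]
    rwa [nsmul_eq_mul] at k1
  · have k1 := card_nsmul_le_sum ((J.filter fun i : ℤ => Q / R ≤ |(i : ℝ)| ∧ w0 ≤ w i).filter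
      fun i : ℤ => |(i : ℝ) - i0| ≤ r) w w0 fun i hi => (mem_filter.1 (mem_filter.1 hi).1).2.2
    have k2 := k1.trans ((sum_le_sum_of_subset_of_nonneg
      (filter_subset_filter _ (filter_subset _ _)) fun i _ _ => hw i).trans (h2 i0 r hr))
    have e : L * (B / w0) * (r / Q) ^ σ = L * B * (r / Q) ^ σ / w0 := by ring
    rw [e, le_div_iff₀ hw00]
    rwa [nsmul_eq_mul] at k2

end Vale.Agent.P127
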