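import Vale.Agent.P127.Fou.Ort

/-! # P127 Fou/Spec: the large spectrum is covered by few unit balls.
q = ceil (28 n K / beta), P' = ceil (28 n (M + 1) / beta) (naturals; q at most 29 n K / beta, P' at most 57 n M / beta), P = q P'. Round x to m / q, m j = floor (q x j), and g y to f y / P', f y j = floor (P' g y j).
The exponent changes by at most n (K / q + (M + 1) / P') which is at most beta / 14, so (ec_lip) the rounded sum V' m = sum over y of ec (sum_j m j * f y j / P) has modulus at least beta Y0 / 2.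
J = the m with a = -ceil(q M) - 1 <= m j < a + P and |V' m| at least beta Y0 / 2; ortn gives card J (beta Y0 / 2)^2 at most P^n * card Y * K (f y = f y' implies norm (g y - g y') at most 1/P' at most 1/N). Ctr = image of J under m -> m / q. -/

namespace Vale.Agent.P127

open Finset
open scoped Classical

theorem rnd_fSpec {q z : ℝ} (hq : 0 < q) : |(⌊q * z⌋ : ℝ) / q - z| ≤ 1 / q := by
  have e : (⌊q * z⌋ : ℝ) / q - z = ((⌊q * z⌋ : ℝ) - q * z) / q := by field_simp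
  rw [e, abs_div, abs_of_pos hq]
  gcongr
  rw [abs_le]
  constructor <;> linarith [Int.floor_le (q * z), Int.lt_floor_add_one (q * z)]

theorem prod_fSpec {q p x z K M : ℝ} (hq : 1 ≤ q) (hp : 0 < p) (hx : |x| ≤ M) (hz : |z| ≤ K) :
    |x * z - (⌊q * x⌋ : ℝ) * (⌊p * z⌋ : ℝ) / (q * p)| ≤ K / q + (M + 1) / p := by
  have hq0 : 0 < q := by linarith
  have h1 := rnd_fSpec (z := x) hq0
  have h2 := rnd_fSpec (z := z) hp
  have h3 : |(⌊q * x⌋ : ℝ) / q| ≤ M + 1 := by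
    have h4 : 1 / q ≤ 1 := by rw [div_le_one hq0]; exact hq
    have := abs_sub_abs_le_abs_sub ((⌊q * x⌋ : ℝ) / q) x
    linarith
  have e : x * z - (⌊q * x⌋ : ℝ) * (⌊p * z⌋ : ℝ) / (q * p) =
      -(((⌊q * x⌋ : ℝ) / q - x) * z) - (⌊q * x⌋ : ℝ) / q * ((⌊p * z⌋ : ℝ) / p - z) := by
    field_simp
    ring
  rw [e]
  refine (abs_sub _ _).trans (add_le_add ?_ ?_)
  · rw [abs_neg, abs_mul]
    calc _ ≤ 1 / q * K := by gcongr
      _ = _ := by ring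
  · rw [abs_mul]
    have : 0 ≤ M + 1 := (abs_nonneg _).trans h3
    calc _ ≤ (M + 1) * (1 / p) := by gcongr
      _ = _ := by ring

theorem pairs_fSpec {υ γ : Type} [DecidableEq γ] (Y : Finset υ) (f : υ → γ) {K : ℝ}
    (h : ∀ y' ∈ Y, ((Y.filter fun y => f y = f y').card : ℝ) ≤ K) :
    (((Y ×ˢ Y).filter fun p => f p.1 = f p.2).card : ℝ) ≤ Y.card * K := by
  rw [card_filter, sum_product_right, Nat.cast_sum, ← nsmul_eq_mul]
  refine sum_le_card_nsmul _ _ _ fun y' hy' => ?_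
  rw [← card_filter]
  exact h y' hy'

theorem par_fSpec {n β K M : ℝ} (hn : 1 ≤ n) (hβ : 0 < β) (hβ1 : β ≤ 1) (hK : 1 ≤ K)
    (hM1 : 1 ≤ M) : ∃ q p : ℕ, 28 * K ≤ q ∧ 28 * (M + 1) ≤ p ∧
      (q : ℝ) * p ≤ 2000 * n ^ 2 * K * M / β ^ 2 ∧ n * (K / q + (M + 1) / p) ≤ β / 14 := by
  obtain ⟨t, ht⟩ : ∃ t : ℝ, t = n / β := ⟨_, rfl⟩
  have ht1 : 1 ≤ t := by rw [ht, le_div_iff₀ hβ]; linarith
  have htK : K ≤ t * K := le_mul_of_one_le_left (by linarith) ht1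
  have htM : M ≤ t * M := le_mul_of_one_le_left (by linarith) ht1
  have htt : t ≤ t * M := le_mul_of_one_le_right (by linarith) hM1
  obtain ⟨q, hq1, hq2⟩ : ∃ q : ℕ, 28 * (t * K) ≤ q ∧ (q : ℝ) ≤ 28 * (t * K) + 1 :=
    ⟨⌈28 * (t * K)⌉₊, Nat.le_ceil _, (Nat.ceil_lt_add_one (by linarith)).le⟩
  obtain ⟨p, hp1, hp2⟩ : ∃ p : ℕ, 28 * (t * M + t) ≤ p ∧ (p : ℝ) ≤ 28 * (t * M + t) + 1 :=
    ⟨⌈28 * (t * M + t)⌉₊, Nat.le_ceil _, (Nat.ceil_lt_add_one (by linarith)).le⟩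
  have hq0 : (0 : ℝ) < q := by linarith
  have hp0 : (0 : ℝ) < p := by linarith
  refine ⟨q, p, by linarith, by linarith, ?_, ?_⟩
  · have e3 : 2000 * n ^ 2 * K * M / β ^ 2 = 2000 * ((t * K) * (t * M)) := by rw [ht]; ring
    have a1 : (q : ℝ) ≤ 29 * (t * K) := by linarith
    have a2 : (p : ℝ) ≤ 57 * (t * M) := by linarith
    have a3 : 0 ≤ (t * K) * (t * M) := mul_nonneg (by linarith) (by linarith)
    have a4 : (q : ℝ) * p ≤ 29 * (t * K) * (57 * (t * M)) :=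
      mul_le_mul a1 a2 hp0.le (by linarith)
    rw [e3]
    linarith
  · have b3 : n = t * β := by rw [ht]; field_simp
    have b4 : t * (K / q) ≤ 1 / 28 := by
      rw [← mul_div_assoc, div_le_iff₀ hq0]; linarith
    have b5 : t * ((M + 1) / p) ≤ 1 / 28 := by
      rw [← mul_div_assoc, div_le_iff₀ hp0]; linarith
    have b6 := mul_le_mul_of_nonneg_left (add_le_add b4 b5) hβ.le
    rw [b3]
    linarith

theorem dif_fSpec {q p : ℕ} {K z w : ℝ} (hK : 1 ≤ K) (hq : 28 * K ≤ q) (hp : (1 : ℝ) ≤ p)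
    (hz : |z| ≤ K) (hw : |w| ≤ K) : |⌊(p : ℝ) * z⌋ - ⌊(p : ℝ) * w⌋| < ((q * p : ℕ) : ℤ) := by
  have b1 := abs_le.1 hz
  have b2 := abs_le.1 hw
  have b0 : 28 * K * p ≤ q * p := mul_le_mul_of_nonneg_right hq (by linarith)
  have b3 : 1 * 1 ≤ K * p := mul_le_mul hK hp zero_le_one (by linarith)
  have b4 : (p : ℝ) * (z - w) ≤ p * (2 * K) := by gcongr; linarith [b1.2, b2.1]
  have b5 : (p : ℝ) * (w - z) ≤ p * (2 * K) := by gcongr; linarith [b1.1, b2.2]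
  have b6 : |((⌊(p : ℝ) * z⌋ : ℤ) : ℝ) - (⌊(p : ℝ) * w⌋ : ℤ)| < q * p := by
    rw [abs_lt]
    constructor <;> linarith [Int.floor_le ((p : ℝ) * z), Int.lt_floor_add_one ((p : ℝ) * z),
      Int.floor_le ((p : ℝ) * w), Int.lt_floor_add_one ((p : ℝ) * w)]
  exact_mod_cast b6

theorem rng_fSpec {q p : ℕ} {M z : ℝ} (hM : 1 ≤ M) (hq : (1 : ℝ) ≤ q) (hp : 28 * (M + 1) ≤ p)
    (hz : |z| ≤ M) : ⌊(q : ℝ) * z⌋ ∈
      Ico (-⌈(q : ℝ) * M⌉ - 1) (-⌈(q : ℝ) * M⌉ - 1 + ((q * p : ℕ) : ℤ)) := by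
  have b1 := abs_le.1 hz
  have b2 : (q : ℝ) * z ≤ q * M := by gcongr; exact b1.2
  have b3 : (q : ℝ) * (-M) ≤ q * z := by gcongr; exact b1.1
  have b4 : (q : ℝ) * (28 * (M + 1)) ≤ q * p := by gcongr
  have b5 : 0 ≤ (q : ℝ) * M := by positivity
  have c1 := Int.floor_le ((q : ℝ) * z)
  have c2 := Int.lt_floor_add_one ((q : ℝ) * z)
  have c3 := Int.le_ceil ((q : ℝ) * M)
  have c4 := Int.ceil_lt_add_one ((q : ℝ) * M)
  refine mem_Ico.2 ⟨?_, ?_⟩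
  · have : ((-⌈(q : ℝ) * M⌉ - 1 : ℤ) : ℝ) ≤ (⌊(q : ℝ) * z⌋ : ℤ) := by push_cast; linarith
    exact_mod_cast this
  · have : ((⌊(q : ℝ) * z⌋ : ℤ) : ℝ) < ((-⌈(q : ℝ) * M⌉ - 1 + ((q * p : ℕ) : ℤ) : ℤ) : ℝ) := by
      push_cast; linarith
    exact_mod_cast this

theorem fou_spec {n : ℕ} (hn : 1 ≤ n) {υ : Type} (Y : Finset υ) (g : υ → Fin n → ℝ)
    {β K N M Y0 : ℝ} (hβ : 0 < β) (hβ1 : β ≤ 1) (hK : 1 ≤ K) (hN : 1 ≤ N) (hM : N ≤ M)
    (hY0 : 0 < Y0) (hY : (Y.card : ℝ) ≤ Y0) (hg : ∀ y ∈ Y, ‖g y‖ ≤ K)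
    (hs : ∀ p : Fin n → ℝ, ((Y.filter fun y => ‖g y - p‖ ≤ 1 / N).card : ℝ) ≤ K) :
    ∃ Ctr : Finset (Fin n → ℝ),
      (Ctr.card : ℝ) ≤ 4 * K * (2000 * n ^ 2 * K * M / β ^ 2) ^ n / (β ^ 2 * Y0) ∧
      ∀ x : Fin n → ℝ, ‖x‖ ≤ M → β * Y0 ≤ ‖VY Y g x‖ → ∃ s ∈ Ctr, ‖x - s‖ ≤ 1 := by
  have hM1 : 1 ≤ M := hN.trans hM
  obtain ⟨q, p, hq3, hp3, hPle, hsm⟩ := par_fSpec (n := n) (by exact_mod_cast hn) hβ hβ1 hK hM1
  have hq0 : (0 : ℝ) < q := by linarith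
  have hp0 : (0 : ℝ) < p := by linarith
  have hP : 0 < q * p := Nat.mul_pos (by exact_mod_cast hq0) (by exact_mod_cast hp0)
  rw [← Nat.cast_mul] at hPle
  have hgj : ∀ y ∈ Y, ∀ j, |g y j| ≤ K := fun y hy j => (norm_le_pi_norm (g y) j).trans (hg y hy)
  obtain ⟨f, hf⟩ : ∃ f : υ → Fin n → ℤ, ∀ y j, f y j = ⌊(p : ℝ) * g y j⌋ := ⟨_, fun _ _ => rfl⟩
  obtain ⟨a, ha⟩ : ∃ a : ℤ, a = -⌈(q : ℝ) * M⌉ - 1 := ⟨_, rfl⟩
  obtain ⟨J, hJ⟩ : ∃ J : Finset (Fin n → ℤ), ∀ m, m ∈ J ↔ (∀ j, m j ∈ Ico a (a + (q * p : ℕ))) ∧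
      β * Y0 / 2 ≤ ‖∑ y ∈ Y, ec (∑ j, (m j : ℝ) * f y j / (q * p : ℕ))‖ :=
    ⟨(Fintype.piFinset fun _ : Fin n => Ico a (a + (q * p : ℕ))).filter fun m =>
      β * Y0 / 2 ≤ ‖∑ y ∈ Y, ec (∑ j, (m j : ℝ) * f y j / (q * p : ℕ))‖, fun m => by
        rw [mem_filter, Fintype.mem_piFinset]⟩
  have ho := ortn hP a J (fun i hi j => mem_Ico.1 (((hJ i).1 hi).1 j)) Y f fun s hs s' hs' j => by
    rw [hf, hf]
    exact dif_fSpec hK hq3 (by linarith) (hgj s hs j) (hgj s' hs' j)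
  have hpair := pairs_fSpec Y f (K := K) fun y' _ => by
    refine le_trans (Nat.cast_le.2 (card_le_card fun y hy => ?_)) (hs (g y'))
    rw [mem_filter] at hy ⊢
    refine ⟨hy.1, (pi_norm_le_iff_of_nonneg (by positivity)).2 fun j => ?_⟩
    have b0 := congrFun hy.2 j
    rw [hf, hf] at b0
    have b1 := Int.abs_sub_lt_one_of_floor_eq_floor b0
    rw [← mul_sub, abs_mul, abs_of_pos hp0] at b1
    rw [Pi.sub_apply, Real.norm_eq_abs, le_div_iff₀ (by linarith), mul_comm]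
    exact (mul_le_mul_of_nonneg_right (by linarith) (abs_nonneg _)).trans b1.le
  have hlow := card_nsmul_le_sum J
    (fun m => ‖∑ y ∈ Y, ec (∑ j, (m j : ℝ) * f y j / (q * p : ℕ))‖ ^ 2) ((β * Y0 / 2) ^ 2)
    fun m hm => pow_le_pow_left₀ (by positivity) ((hJ m).1 hm).2 2
  rw [nsmul_eq_mul] at hlow
  refine ⟨J.image fun m j => (m j : ℝ) / q, ?_, fun x hx hV => ?_⟩
  · refine (Nat.cast_le.2 card_image_le).trans ?_
    rw [le_div_iff₀ (by positivity)]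
    have b1 : (J.card : ℝ) * (β * Y0 / 2) ^ 2 ≤ (2000 * n ^ 2 * K * M / β ^ 2) ^ n * (Y0 * K) :=
      (hlow.trans ho).trans (mul_le_mul (pow_le_pow_left₀ (Nat.cast_nonneg _) hPle n)
        (hpair.trans (mul_le_mul_of_nonneg_right hY (by linarith))) (Nat.cast_nonneg _)
        (by positivity))
    refine le_of_mul_le_mul_right ?_ (show 0 < Y0 / 4 by positivity)
    calc _ = (J.card : ℝ) * (β * Y0 / 2) ^ 2 := by ring
      _ ≤ _ := b1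
      _ = _ := by ring
  · have hxj : ∀ j, |x j| ≤ M := fun j => (norm_le_pi_norm x j).trans hx
    refine ⟨_, mem_image_of_mem _ (a := fun j => ⌊(q : ℝ) * x j⌋) ((hJ _).2 ⟨fun j => ?_, ?_⟩), ?_⟩
    · rw [ha]
      exact rng_fSpec hM1 (by linarith) hp3 (hxj j)
    · have b1 : ‖VY Y g x - ∑ y ∈ Y, ec (∑ j, ((⌊(q : ℝ) * x j⌋ : ℤ) : ℝ) * f y j / (q * p : ℕ))‖ ≤
          Y.card * (β / 2) := by
        rw [VY, ← sum_sub_distrib, ← nsmul_eq_mul]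
        refine (norm_sum_le _ _).trans (sum_le_card_nsmul _ _ _ fun y hy => ?_)
        refine (ec_lip _ _).trans ?_
        rw [← sum_sub_distrib]
        have b2 := (abs_sum_le_sum_abs _ _).trans (sum_le_card_nsmul univ _ _ fun j _ =>
          prod_fSpec (q := q) (by linarith) hp0 (hxj j) (hgj y hy j))
        rw [card_univ, Fintype.card_fin, nsmul_eq_mul] at b2
        simp only [hf, Nat.cast_mul]
        linarith
      have b2 := norm_sub_norm_le (VY Y g x)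
        (∑ y ∈ Y, ec (∑ j, ((⌊(q : ℝ) * x j⌋ : ℤ) : ℝ) * f y j / (q * p : ℕ)))
      have b3 : (Y.card : ℝ) * (β / 2) ≤ Y0 * (β / 2) := by gcongr
      linarith
    · refine (pi_norm_le_iff_of_nonneg zero_le_one).2 fun j => ?_
      rw [Pi.sub_apply, Real.norm_eq_abs, abs_sub_comm]
      refine (rnd_fSpec hq0).trans ?_
      rw [div_le_one hq0]
      linarith

end Vale.Agent.P127
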